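import Vale.Agent.Lib.P232.GapFinal
import Vale.Agent.Lib.P232.RigCertAll

open scoped Real

namespace Vale.Agent.Results.P232.A_class

open Vale.Agent.Lib.P232

/-- The isoperimetric profile and the minimizers of the cubic three-torus. Every measurable periodic
set with volume `V` in `(0, 1)` and `v = min (V, 1 - V)` has perimeter at least the minimum of the ball
value, the tube value and the value `2`; and if the perimeter of the set does not exceed this minimum,
then the set or its complement is, up to a null set of the cell, a geodesic ball, a solid tube about a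
closed geodesic parallel to a coordinate axis or a slab normal to a coordinate axis, of volume `v`. -/
theorem result (E : Set (ℝ × ℝ × ℝ)) (hE : MeasurableSet E) (hp : IsPeriodicSet E)
    (hV0 : 0 < torusVol E) (hV1 : torusVol E < 1) :
    ENNReal.ofReal (min ((36 * π) ^ (1 / 3 : ℝ) * (min (torusVol E) (1 - torusVol E)) ^ (2 / 3 : ℝ))
      (min (2 * √(π * min (torusVol E) (1 - torusVol E))) 2)) ≤ perimeter E ∧
    (perimeter E ≤
      ENNReal.ofReal (min ((36 * π) ^ (1 / 3 : ℝ) * (min (torusVol E) (1 - torusVol E)) ^ (2 / 3 : ℝ))
        (min (2 * √(π * min (torusVol E) (1 - torusVol E))) 2)) →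
      IsCanonical E (min (torusVol E) (1 - torusVol E)) ∨
        IsCanonical Eᶜ (min (torusVol E) (1 - torusVol E))) := by
  have hC := rigCerts
  have hδ : (0 : ℝ) < 1 / 100000 := by norm_num
  constructor
  · rcases le_total (torusVol E) (1 - torusVol E) with h | h
    · rw [min_eq_left h]
      exact J_all (hC.toGap hδ) hE hp (by linarith)
    · rw [min_eq_right h]
      exact J_all_compl (hC.toGap hδ) hE hp (by linarith)
  · intro hP
    exact @classify_all (fun _ => True) (seqClassify_all hC hδ) E hE hp hV0 hV1 trivial hP

end Vale.Agent.Results.P232.A_class
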