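import Vale.Agent.Lib.P232.Main2
import Vale.Agent.Lib.P232.RigCert3

open scoped Real

namespace Vale.Agent.Results.P232.A_classout

open Vale.Agent.Lib.P232

/-- Every measurable periodic set with `v = min (|E|, 1 - |E|)` outside the interval
`(53/200, 9/25)` has perimeter at least the minimum of the ball value, the tube value and the
value `2`; and if the perimeter of the set does not exceed this value, then the set or its complement
is, up to a null set of the cell, a geodesic ball, a solid tube about a closed geodesic parallel to a
coordinate axis or a slab normal to a coordinate axis, of volume `v`. -/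
theorem result (E : Set (ℝ × ℝ × ℝ)) (hE : MeasurableSet E) (hp : IsPeriodicSet E)
    (hV0 : 0 < torusVol E) (hV1 : torusVol E < 1)
    (hV : min (torusVol E) (1 - torusVol E) ≤ 53 / 200 ∨
      9 / 25 ≤ min (torusVol E) (1 - torusVol E)) :
    ENNReal.ofReal (min ((36 * π) ^ (1 / 3 : ℝ) * (min (torusVol E) (1 - torusVol E)) ^ (2 / 3 : ℝ))
      (min (2 * √(π * min (torusVol E) (1 - torusVol E))) 2)) ≤ perimeter E ∧
    (perimeter E ≤
      ENNReal.ofReal (min ((36 * π) ^ (1 / 3 : ℝ) * (min (torusVol E) (1 - torusVol E)) ^ (2 / 3 : ℝ))
        (min (2 * √(π * min (torusVol E) (1 - torusVol E))) 2)) →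
      IsCanonical E (min (torusVol E) (1 - torusVol E)) ∨
        IsCanonical Eᶜ (min (torusVol E) (1 - torusVol E))) := by
  constructor
  · rcases le_total (torusVol E) (1 - torusVol E) with h | h
    · rw [min_eq_left h] at hV ⊢
      exact J_bound hE hp hV (by linarith)
    · rw [min_eq_right h] at hV ⊢
      exact J_bound_compl hE hp hV (by linarith)
  · intro hP
    exact @classify_all (fun v => v ≤ 53 / 200 ∨ 9 / 25 ≤ v) (seqClassify_out rigCerts3 (by norm_num))
      E hE hp hV0 hV1 hV hP

end Vale.Agent.Results.P232.A_classout
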