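import Vale.Agent.Lib.P232.Main

open scoped Real

namespace Vale.Agent.Results.P232.B_ball

open Vale.Agent.Lib.P232

/-- Every measurable periodic set with `v = min (|E|, 1 - |E|) ≤ 4π/81` has perimeter at least that
of a ball of volume `v`. -/
theorem result (E : Set (ℝ × ℝ × ℝ)) (hE : MeasurableSet E) (hp : IsPeriodicSet E)
    (hV : min (torusVol E) (1 - torusVol E) ≤ 4 * π / 81) :
    ENNReal.ofReal ((36 * π) ^ (1 / 3 : ℝ) * (min (torusVol E) (1 - torusVol E)) ^ (2 / 3 : ℝ)) ≤
      perimeter E := by
  rcases le_total (torusVol E) (1 - torusVol E) with h | h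
  · rw [min_eq_left h] at hV ⊢
    exact ball_bound hE hp hV
  · rw [min_eq_right h] at hV ⊢
    exact ball_bound_compl hE hp hV

end Vale.Agent.Results.P232.B_ball
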